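import Vale.Agent.Lib.P371.Main2

namespace Vale.Agent.Results.P371.UnimodalGroundPlusAny

open Vale.Agent.Lib.P371

/-- The one-dimensional Lieb-Thirring conjecture for pairs of eigenvalues of a unimodal potential:
if `V ≥ 0` is continuous, compactly supported, nondecreasing on `(-∞, xm]` and nonincreasing on
`[xm, ∞)`, `E₁` is the ground state energy (it has a positive eigenfunction) and `E₂ ∈ (E₁, 0)` is
any other eigenvalue, then `|E₁|^γ + |E₂|^γ ≤ L^(1)_γ ∫ V^(γ+1/2)` for all `1/2 < γ ≤ 3/2`. -/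
theorem result (γ : ℝ) (hγ1 : 1 / 2 < γ) (hγ2 : γ ≤ 3 / 2) (V : ℝ → ℝ)
    (hVc : Continuous V) (hV0 : ∀ x, 0 ≤ V x) (hsupp : HasCompactSupport V) (xm : ℝ)
    (hmono : MonotoneOn V (Set.Iic xm)) (hanti : AntitoneOn V (Set.Ici xm))
    (E₁ E₂ : ℝ) (hE : E₁ < E₂) (hE2 : E₂ < 0) (ψ₁ ψ₂ : ℝ → ℝ)
    (h1 : IsEigenfunction V E₁ ψ₁) (h2 : IsEigenfunction V E₂ ψ₂)
    (hpos : ∀ x, 0 < ψ₁ x) (hnz : ∃ x, ψ₂ x ≠ 0) :
    |E₁| ^ γ + |E₂| ^ γ ≤ Lone γ * ∫ x, V x ^ (γ + 1 / 2) :=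
  ground_plus_any hγ1 hγ2 hVc hV0 hsupp hmono hanti hE hE2 h1 h2 hpos hnz

end Vale.Agent.Results.P371.UnimodalGroundPlusAny
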