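import Vale.Agent.Lib.P371.Main

namespace Vale.Agent.Results.P371.UnimodalTwoLowest

open Vale.Agent.Lib.P371

/-- The one-dimensional Lieb-Thirring conjecture for the two lowest eigenvalues of a unimodal
potential: if `V ≥ 0` is continuous, compactly supported, nondecreasing on `(-∞, xm]` and
nonincreasing on `[xm, ∞)`, `ψ₁ > 0` is an eigenfunction for `E₁` and `ψ₂` is an eigenfunction with
exactly one sign change for `E₂`, `E₁ < E₂ < 0`, then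
`|E₁|^γ + |E₂|^γ ≤ L^(1)_γ ∫ V^(γ+1/2)` for all `1/2 < γ ≤ 3/2`. -/
theorem result (γ : ℝ) (hγ1 : 1 / 2 < γ) (hγ2 : γ ≤ 3 / 2) (V : ℝ → ℝ)
    (hVc : Continuous V) (hV0 : ∀ x, 0 ≤ V x) (hsupp : HasCompactSupport V) (xm : ℝ)
    (hmono : MonotoneOn V (Set.Iic xm)) (hanti : AntitoneOn V (Set.Ici xm))
    (E₁ E₂ : ℝ) (hE : E₁ < E₂) (hE2 : E₂ < 0) (ψ₁ ψ₂ : ℝ → ℝ)
    (h1 : IsEigenfunction V E₁ ψ₁) (h2 : IsEigenfunction V E₂ ψ₂)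
    (hpos : ∀ x, 0 < ψ₁ x) (z : ℝ) (hneg2 : ∀ x, x < z → ψ₂ x < 0)
    (hpos2 : ∀ x, z < x → 0 < ψ₂ x) :
    |E₁| ^ γ + |E₂| ^ γ ≤ Lone γ * ∫ x, V x ^ (γ + 1 / 2) :=
  two_eigenvalues hγ1 hγ2 hVc hV0 hsupp hmono hanti hE hE2 h1 h2 hpos hneg2 hpos2

end Vale.Agent.Results.P371.UnimodalTwoLowest
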